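import Vale.Agent.P124.H661.T4asm
import Vale.Agent.P124.H186.T4G
import Vale.Agent.P124.H186.T4I
import Vale.Agent.P124.H186.T4S

/-! P124 (helper413), T4: the geometric theorem from its three cases. -/

namespace P124H186

/-- the geometric theorem -/
theorem H413.T4_geometric (g : Geo) (n : ℕ) (hg : Valid n g) (t0 : ℕ) (ht0 : t0 ≤ n) (rho : ℝ)
    (hrho : 0 < rho) : ∃ ts w R, IsCS g t0 rho ts w R :=
  H661.assemble g n hg t0 ht0 rho hrho
    (fun _ _ _ h1 h2 h3 h4 h5 h6 => caseG hg ht0 hrho h1 h2 h3 h4 h5 h6)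
    (fun _ _ h1 h2 h3 h4 h5 => caseI hg ht0 hrho h1 h2 h3 h4 h5)
    (fun _ _ _ _ h1 h2 h3 h4 h5 h6 h7 h8 h9 h10 =>
      caseS hg ht0 hrho h1 h2 h3 h4 h5 h6 h7 h8 h9 h10)

end P124H186
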